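import Vale.Agent.P078.DefsCentral
import Vale.Agent.P078.Proj

/-!
# P078: the corner of an algebra of operators on a closed subspace
-/

namespace Vale.Agent.P078

open scoped InnerProductSpace

set_option linter.unusedSectionVars false

variable {H : Type*} [NormedAddCommGroup H] [InnerProductSpace ℂ H] [CompleteSpace H]
variable (K : Submodule ℂ H) [CompleteSpace K]

/-- Extend an operator on `K` by zero on the orthogonal complement. -/
noncomputable def inflate (S : K →L[ℂ] K) : H →L[ℂ] H :=
  K.subtypeL ∘L S ∘L K.orthogonalProjectionOnto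

/-- Compress an operator on `H` to `K`. -/
noncomputable def compress (T : H →L[ℂ] H) : K →L[ℂ] K :=
  K.orthogonalProjectionOnto ∘L T ∘L K.subtypeL

variable {K}

/-
PROOF SKETCHES (subtask).  Everything follows from `K.orthogonalProjectionOnto (x : H) = x` for `x : K`
(`Submodule.orthogonalProjectionOnto_mem_subspace_eq_self` or the current name), `K.starProjection x = (K.orthogonalProjectionOnto x : H)`
(`Submodule.starProjection_apply` / `coe_orthogonalProjectionOnto_apply`), the adjoint relation between `K.subtypeL` and `K.orthogonalProjectionOnto`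
(`Submodule.adjoint_subtypeL`, `Submodule.adjoint_orthogonalProjectionOnto`; or check `⟪inflate S x, y⟫ = ⟪x, inflate (star S) y⟫` by hand with
`Submodule.inner_orthogonalProjectionOnto_eq_of_mem_left` etc.), and `ext`.  `norm_inflate`: `≤` by `opNorm_le_bound` (`‖P x‖ ≤ ‖x‖`), `≥` because
`S = compress (inflate S)` and `norm_compress_le'`.  `compress_nonneg`: `compress K T = star B * T * B`-type conjugation, or via
`ContinuousLinearMap.nonneg_iff_isPositive` and inner products.
-/

lemma inflate_apply (S : K →L[ℂ] K) (x : H) :
    inflate K S x = (S (K.orthogonalProjectionOnto x) : H) := rfl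

lemma compress_apply (T : H →L[ℂ] H) (x : K) :
    compress K T x = K.orthogonalProjectionOnto (T (x : H)) := rfl

lemma inflate_add (S S' : K →L[ℂ] K) : inflate K (S + S') = inflate K S + inflate K S' := by
  ext x; simp [inflate]

lemma inflate_sub (S S' : K →L[ℂ] K) : inflate K (S - S') = inflate K S - inflate K S' := by
  ext x; simp [inflate]

lemma inflate_smul (c : ℂ) (S : K →L[ℂ] K) : inflate K (c • S) = c • inflate K S := by
  ext x; simp [inflate]

lemma inflate_zero : inflate K (0 : K →L[ℂ] K) = 0 := by
  ext x; simp [inflate]

lemma inflate_sum {ι : Type*} (s : Finset ι) (S : ι → (K →L[ℂ] K)) :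
    inflate K (∑ i ∈ s, S i) = ∑ i ∈ s, inflate K (S i) := by
  classical
  induction s using Finset.induction_on with
  | empty => simp [inflate_zero]
  | insert a s ha ih => rw [Finset.sum_insert ha, Finset.sum_insert ha, inflate_add, ih]

lemma inflate_mul (S S' : K →L[ℂ] K) : inflate K (S * S') = inflate K S * inflate K S' := by
  ext x; simp [inflate]

lemma inflate_star (S : K →L[ℂ] K) : inflate K (star S) = star (inflate K S) := by
  rw [ContinuousLinearMap.star_eq_adjoint, ContinuousLinearMap.star_eq_adjoint]
  unfold inflate
  rw [ContinuousLinearMap.adjoint_comp, ContinuousLinearMap.adjoint_comp,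
    Submodule.adjoint_subtypeL, Submodule.adjoint_orthogonalProjectionOnto]
  rfl

lemma inflate_one : inflate K (1 : K →L[ℂ] K) = K.starProjection := by
  ext x; simp [inflate]

lemma compress_inflate (S : K →L[ℂ] K) : compress K (inflate K S) = S := by
  ext x; simp [inflate, compress]

lemma inflate_compress (T : H →L[ℂ] H) :
    inflate K (compress K T) = K.starProjection * T * K.starProjection := by
  ext x; simp [inflate, compress]

lemma inflate_injective : Function.Injective (inflate K) := by
  exact Function.LeftInverse.injective (g := compress K) compress_inflate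

lemma norm_inflate (S : K →L[ℂ] K) : ‖inflate K S‖ = ‖S‖ := by
  apply le_antisymm
  · unfold inflate
    calc ‖K.subtypeL ∘L S ∘L K.orthogonalProjectionOnto‖
        ≤ ‖K.subtypeL‖ * (‖S‖ * ‖K.orthogonalProjectionOnto‖) :=
          (ContinuousLinearMap.opNorm_comp_le _ _).trans
            (mul_le_mul_of_nonneg_left (ContinuousLinearMap.opNorm_comp_le _ _) (norm_nonneg _))
      _ ≤ 1 * (‖S‖ * 1) := by
          gcongr
          · exact K.norm_subtypeL_le
          · exact K.orthogonalProjectionOnto_norm_le
      _ = ‖S‖ := by ring
  · calc ‖S‖ = ‖compress K (inflate K S)‖ := by rw [compress_inflate]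
      _ ≤ ‖K.orthogonalProjectionOnto‖ * (‖inflate K S‖ * ‖K.subtypeL‖) :=
          (ContinuousLinearMap.opNorm_comp_le _ _).trans
            (mul_le_mul_of_nonneg_left (ContinuousLinearMap.opNorm_comp_le _ _) (norm_nonneg _))
      _ ≤ 1 * (‖inflate K S‖ * 1) := by
          gcongr
          · exact K.orthogonalProjectionOnto_norm_le
          · exact K.norm_subtypeL_le
      _ = ‖inflate K S‖ := by ring

lemma norm_compress_le' (T : H →L[ℂ] H) : ‖compress K T‖ ≤ ‖T‖ := by
  calc ‖compress K T‖ ≤ ‖K.orthogonalProjectionOnto‖ * (‖T‖ * ‖K.subtypeL‖) :=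
          (ContinuousLinearMap.opNorm_comp_le _ _).trans
            (mul_le_mul_of_nonneg_left (ContinuousLinearMap.opNorm_comp_le _ _) (norm_nonneg _))
      _ ≤ 1 * (‖T‖ * 1) := by
          gcongr
          · exact K.orthogonalProjectionOnto_norm_le
          · exact K.norm_subtypeL_le
      _ = ‖T‖ := by ring

lemma proj_mul_inflate (S : K →L[ℂ] K) : K.starProjection * inflate K S = inflate K S := by
  rw [← inflate_one, ← inflate_mul, one_mul]

lemma inflate_mul_proj (S : K →L[ℂ] K) : inflate K S * K.starProjection = inflate K S := by
  rw [← inflate_one, ← inflate_mul, mul_one]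

lemma inflate_isStarProjection {S : K →L[ℂ] K} (hS : IsStarProjection S) :
    IsStarProjection (inflate K S) := by
  refine ⟨?_, ?_⟩
  · show inflate K S * inflate K S = inflate K S
    rw [← inflate_mul, hS.isIdempotentElem.eq]
  · show star (inflate K S) = inflate K S
    rw [← inflate_star, hS.isSelfAdjoint.star_eq]

lemma inflate_isSelfAdjoint {S : K →L[ℂ] K} (hS : IsSelfAdjoint S) :
    IsSelfAdjoint (inflate K S) := by
  show star (inflate K S) = inflate K S
  rw [← inflate_star, hS.star_eq]

lemma compress_isSelfAdjoint {T : H →L[ℂ] H} (hT : IsSelfAdjoint T) :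
    IsSelfAdjoint (compress K T) := by
  show star (compress K T) = compress K T
  have hT' : ContinuousLinearMap.adjoint T = T := by
    rw [← ContinuousLinearMap.star_eq_adjoint]; exact hT.star_eq
  rw [ContinuousLinearMap.star_eq_adjoint]
  unfold compress
  rw [ContinuousLinearMap.adjoint_comp, ContinuousLinearMap.adjoint_comp,
    Submodule.adjoint_subtypeL, Submodule.adjoint_orthogonalProjectionOnto, hT']
  rfl

lemma compress_nonneg {T : H →L[ℂ] H} (hT : 0 ≤ T) : 0 ≤ compress K T := by
  rw [ContinuousLinearMap.nonneg_iff_isPositive] at hT ⊢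
  have h := hT.adjoint_conj K.subtypeL
  rw [Submodule.adjoint_subtypeL] at h
  exact h

/-- `compress` as a continuous linear map. -/
noncomputable def compressL (K : Submodule ℂ H) [CompleteSpace K] :
    (H →L[ℂ] H) →L[ℂ] (K →L[ℂ] K) :=
  LinearMap.mkContinuous
    { toFun := compress K
      map_add' := fun T T' => by ext x; simp [compress]
      map_smul' := fun c T => by ext x; simp [compress] } 1
    (fun T => by simpa using norm_compress_le' T)

@[simp] lemma compressL_apply (T : H →L[ℂ] H) : compressL K T = compress K T := rfl

/-- If `a` commutes with the projection onto `K` then compression is multiplicative at `a`. -/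
lemma compress_mul_of_commute {a : H →L[ℂ] H} (ha : a * K.starProjection = K.starProjection * a)
    (T : H →L[ℂ] H) : compress K (a * T) = compress K a * compress K T := by
  ext x
  have h : ∀ y : H, a (K.starProjection y) = K.starProjection (a y) := fun y =>
    congrArg (fun f : H →L[ℂ] H => f y) ha
  have h2 : K.orthogonalProjectionOnto (a (K.orthogonalProjectionOnto (T (x : H)) : H))
      = K.orthogonalProjectionOnto (a (T (x : H))) := by
    have := h (T (x : H))
    rw [Submodule.starProjection_apply, Submodule.starProjection_apply] at this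
    rw [this]
    exact K.orthogonalProjectionOnto_mem_subspace_eq_self _
  show ((K.orthogonalProjectionOnto (a (T (x : H))) : K) : H)
    = ((K.orthogonalProjectionOnto (a (K.orthogonalProjectionOnto (T (x : H)) : H)) : K) : H)
  rw [h2]

lemma compress_mul_of_commute' {a : H →L[ℂ] H} (ha : a * K.starProjection = K.starProjection * a)
    (T : H →L[ℂ] H) : compress K (T * a) = compress K T * compress K a := by
  ext x
  have h : ∀ y : H, a (K.starProjection y) = K.starProjection (a y) := fun y =>
    congrArg (fun f : H →L[ℂ] H => f y) ha
  have h2 : ((K.orthogonalProjectionOnto (a (x : H)) : K) : H) = a (x : H) := by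
    have := h (x : H)
    rw [Submodule.starProjection_apply, Submodule.starProjection_apply] at this
    rw [← this]
    simp
  show ((K.orthogonalProjectionOnto (T (a (x : H))) : K) : H)
    = ((K.orthogonalProjectionOnto (T ((K.orthogonalProjectionOnto (a (x : H)) : K) : H)) : K) : H)
  rw [h2]

/-- The corner of `M` on `K` (the projection onto `K` being in `M`): all operators on `K` whose
extension by zero lies in `M`. -/
noncomputable def cornerAlg (M : StarSubalgebra ℂ (H →L[ℂ] H)) (K : Submodule ℂ H) [CompleteSpace K]
    (hK : K.starProjection ∈ M) : StarSubalgebra ℂ (K →L[ℂ] K) where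
  carrier := {S | inflate K S ∈ M}
  mul_mem' := by
    intro S S' hS hS'
    show inflate K (S * S') ∈ M
    rw [inflate_mul]
    exact mul_mem hS hS'
  add_mem' := by
    intro S S' hS hS'
    show inflate K (S + S') ∈ M
    rw [inflate_add]
    exact add_mem hS hS'
  algebraMap_mem' := by
    intro c
    show inflate K (algebraMap ℂ (K →L[ℂ] K) c) ∈ M
    rw [Algebra.algebraMap_eq_smul_one, inflate_smul, inflate_one]
    exact M.smul_mem hK c
  star_mem' := by
    intro S hS
    show inflate K (star S) ∈ M
    rw [inflate_star]
    exact star_mem hS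

lemma mem_cornerAlg {M : StarSubalgebra ℂ (H →L[ℂ] H)} {hK : K.starProjection ∈ M}
    {S : K →L[ℂ] K} : S ∈ cornerAlg M K hK ↔ inflate K S ∈ M := Iff.rfl

lemma compress_mem_cornerAlg {M : StarSubalgebra ℂ (H →L[ℂ] H)} (hK : K.starProjection ∈ M)
    {T : H →L[ℂ] H} (hT : T ∈ M) : compress K T ∈ cornerAlg M K hK := by
  rw [mem_cornerAlg, inflate_compress]
  exact mul_mem (mul_mem hK hT) hK

end Vale.Agent.P078
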