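import Vale.Agent.P078.Red.Corner

/-!
# P078: corners of von Neumann algebras and of MASAs
-/

namespace Vale.Agent.P078

open scoped InnerProductSpace

variable {H : Type*} [NormedAddCommGroup H] [InnerProductSpace ℂ H] [CompleteSpace H]
variable {K : Submodule ℂ H} [CompleteSpace K] {M A : StarSubalgebra ℂ (H →L[ℂ] H)}

/-
PROOF SKETCH (subtask).  `le`, `comm`: inflate and use `hA.le`, `hA.comm`, `inflate_injective`.  `maximal`: let `S ∈ cornerAlg M K _` commute with `cornerAlg A K hKA`.
For `a ∈ A`: `compress K a ∈ cornerAlg A K hKA`, `inflate (compress a) = P a P = a P`; `a * inflate S = a P * inflate S = inflate (compress a * S)` and likewise on the right,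
so `a` commutes with `inflate S ∈ M`; by `hA.maximal`, `inflate S ∈ A`.
-/
theorem isMASA_cornerAlg (hA : IsMASA M A) (hKA : K.starProjection ∈ A) :
    IsMASA (cornerAlg M K (hA.le hKA)) (cornerAlg A K hKA) := by
  have hPP : K.starProjection * K.starProjection = K.starProjection := by
    have h := inflate_mul (K := K) 1 1
    rw [mul_one, inflate_one] at h
    exact h.symm
  refine ⟨?_, ?_, ?_⟩
  · intro S hS
    exact hA.le hS
  · intro S hS S' hS'
    apply inflate_injective (K := K)
    rw [inflate_mul, inflate_mul]
    exact hA.comm _ hS _ hS'
  · intro S hS hcomm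
    show inflate K S ∈ A
    refine hA.maximal _ hS ?_
    intro a ha
    have haP : a * K.starProjection = K.starProjection * a := hA.comm _ ha _ hKA
    have hic : inflate K (compress K a) = a * K.starProjection := by
      rw [inflate_compress, ← haP, mul_assoc, hPP]
    have hc := hcomm (compress K a) (compress_mem_cornerAlg hKA ha)
    calc a * inflate K S = a * (K.starProjection * inflate K S) := by rw [proj_mul_inflate]
      _ = inflate K (compress K a) * inflate K S := by rw [hic, mul_assoc]
      _ = inflate K (compress K a * S) := by rw [inflate_mul]
      _ = inflate K (S * compress K a) := by rw [hc]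
      _ = inflate K S * inflate K (compress K a) := by rw [inflate_mul]
      _ = inflate K S * (K.starProjection * a) := by rw [hic, haP]
      _ = inflate K S * a := by rw [← mul_assoc, inflate_mul_proj]

end Vale.Agent.P078
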