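import Vale.Agent.P078.Red.Corner

/-!
# P078: corners of von Neumann algebras and of MASAs
-/

namespace Vale.Agent.P078

open scoped InnerProductSpace

variable {H : Type*} [NormedAddCommGroup H] [InnerProductSpace ℂ H] [CompleteSpace H]
variable {K : Submodule ℂ H} [CompleteSpace K] {M A : StarSubalgebra ℂ (H →L[ℂ] H)}

/-
PROOF SKETCH (subtask).  Given `φ₀` on `B(K)` positive, central and normal for the corner, put `φ := φ₀.comp (compressL K)`.
* positive: `compress_nonneg`.
* central on `M`: for `a ∈ A`, `m ∈ M`: `a` commutes with `P ∈ A`, so `compress (a * m) = compress a * compress m` and `compress (m * a) = compress m * compress a`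
  (`compress_mul_of_commute`, `compress_mul_of_commute'`); `compress a`, `compress m` lie in the corners (`compress_mem_cornerAlg`).
* normal on `M`: from `F₀, δ` for `φ₀` take `F := F₀.image (fun ζ => (ζ : H))`; `‖compress m‖ ≤ ‖m‖ ≤ 1` and `‖compress m ζ‖ ≤ ‖m ζ‖`.
* `φ P = φ₀ (compress P) = φ₀ 1`, and `hnull` gives `φ P = 0`.
-/
theorem noCentralNormal_cornerAlg (hA : IsMASA M A) (hKA : K.starProjection ∈ A)
    (hnull : ∀ φ : (H →L[ℂ] H) →L[ℂ] ℂ, IsPosFunctional φ → IsCentralOn M A φ → IsNormalOn M φ →
      φ K.starProjection = 0) :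
    NoCentralNormal (cornerAlg M K (hA.le hKA)) (cornerAlg A K hKA) := by
  intro φ₀ hpos hcen hnor
  have h1 : IsPosFunctional (φ₀.comp (compressL K)) := fun y hy => hpos _ (compress_nonneg hy)
  have h2 : IsCentralOn M A (φ₀.comp (compressL K)) := by
    intro a ha m hm
    have hc : a * K.starProjection = K.starProjection * a := hA.comm a ha _ hKA
    show φ₀ (compress K (a * m)) = φ₀ (compress K (m * a))
    rw [compress_mul_of_commute hc, compress_mul_of_commute' hc]
    exact hcen _ (compress_mem_cornerAlg hKA ha) _ (compress_mem_cornerAlg (hA.le hKA) hm)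
  have h3 : IsNormalOn M (φ₀.comp (compressL K)) := by
    intro ε hε
    obtain ⟨F₀, δ, hδ, hF⟩ := hnor ε hε
    classical
    refine ⟨F₀.image (fun ζ : K => (ζ : H)), δ, hδ, fun m hm hm1 hmF => ?_⟩
    show ‖φ₀ (compress K m)‖ < ε
    refine hF _ (compress_mem_cornerAlg (hA.le hKA) hm) ((norm_compress_le' m).trans hm1)
      fun ζ hζ => ?_
    have h := hmF (ζ : H) (Finset.mem_image.2 ⟨ζ, hζ, rfl⟩)
    refine lt_of_le_of_lt ?_ h
    rw [compress_apply]
    exact K.norm_orthogonalProjectionOnto_apply_le _
  have h4 := hnull _ h1 h2 h3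
  have h5 : compress K K.starProjection = 1 := by
    rw [← inflate_one, compress_inflate]
  have h6 : φ₀ (compress K K.starProjection) = 0 := h4
  rwa [h5] at h6

end Vale.Agent.P078
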