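import Vale.Agent.P078.Red.Corner

/-!
# P078: corners of von Neumann algebras and of MASAs
-/

namespace Vale.Agent.P078

open scoped InnerProductSpace

variable {H : Type*} [NormedAddCommGroup H] [InnerProductSpace ℂ H] [CompleteSpace H]
variable {K : Submodule ℂ H} [CompleteSpace K] {M A : StarSubalgebra ℂ (H →L[ℂ] H)}

/-- If `R` commutes with the projection onto `K`, its compression acts on inflated operators
as `R` itself. -/
lemma compress_conj_left {R : H →L[ℂ] H} (hRP : R * K.starProjection = K.starProjection * R)
    (S : K →L[ℂ] K) : K.starProjection * R * K.starProjection * inflate K S = R * inflate K S := by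
  rw [mul_assoc, proj_mul_inflate, ← hRP, mul_assoc, proj_mul_inflate]

lemma compress_conj_right {R : H →L[ℂ] H} (hRP : R * K.starProjection = K.starProjection * R)
    (S : K →L[ℂ] K) : inflate K S * (K.starProjection * R * K.starProjection) = inflate K S * R := by
  rw [← mul_assoc, ← mul_assoc, inflate_mul_proj, mul_assoc, hRP, ← mul_assoc, inflate_mul_proj]

/-
PROOF SKETCH (subtask).  Write `P := K.starProjection ∈ M`.  Let `T : K →L K` commute with everything that commutes with `cornerAlg M K hK`.  To show `inflate K T ∈ M` use `hM`:
let `R` commute with all of `M`.  Then `R` commutes with `P`, and `compress K R` commutes with every `S ∈ cornerAlg M K hK`: apply `inflate_injective`;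
`inflate (compress R * S) = P R P * inflate S = R * inflate S` (as `inflate S = P * inflate S` and `R P = P R`), similarly on the other side, and `R` commutes with
`inflate S ∈ M`.  So `compress K R * T = T * compress K R`; inflating, `P R P * inflate T = inflate T * P R P`, i.e. `R * inflate T = inflate T * R`.
-/
theorem isVN_cornerAlg (hM : IsVN M) (hK : K.starProjection ∈ M) : IsVN (cornerAlg M K hK) := by
  intro T hT
  rw [mem_cornerAlg]
  apply hM
  intro R hR
  have hRP : R * K.starProjection = K.starProjection * R := hR _ hK
  have hc : ∀ S ∈ cornerAlg M K hK, compress K R * S = S * compress K R := by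
    intro S hS
    apply inflate_injective
    rw [inflate_mul, inflate_mul, inflate_compress, compress_conj_left hRP,
      compress_conj_right hRP]
    exact hR _ hS
  have h4 := congrArg (inflate K) (hT (compress K R) hc)
  rw [inflate_mul, inflate_mul, inflate_compress, compress_conj_left hRP,
    compress_conj_right hRP] at h4
  exact h4

end Vale.Agent.P078
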