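import Vale.Agent.P078.Red.Main
import Vale.Agent.P078.VN.ThinMain

/-!
# P078: final statements in terms of normal central functionals
-/

namespace Vale.Agent.P078

open scoped InnerProductSpace

variable {H : Type*} [NormedAddCommGroup H] [InnerProductSpace ℂ H] [CompleteSpace H]
variable {M A : StarSubalgebra ℂ (H →L[ℂ] H)}

theorem IsMASA.noCentralNormal_of_diffuse {A₀ : StarSubalgebra ℂ (H →L[ℂ] H)} (hA : IsMASA ⊤ A₀)
    (hd : IsDiffuse A₀) : NoCentralNormal ⊤ A₀ :=
  (hA.thin_of_diffuse hd).noCentralNormal hA.le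

end Vale.Agent.P078
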