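import Vale.Agent.P078.DefsUnder
import Vale.Agent.P078.Proj

/-!
# P078: gluing so-pavings of two complementary corners
-/

namespace Vale.Agent.P078

open scoped InnerProductSpace

variable {H : Type*} [NormedAddCommGroup H] [InnerProductSpace ℂ H] [CompleteSpace H]
variable {M A : StarSubalgebra ℂ (H →L[ℂ] H)}

/-
PROOF SKETCH (subtask).  For `v : H`, `‖(B₁ + B₂) v‖^2 = ‖B₁ (z v)‖^2 + ‖B₂ ((1 - z) v)‖^2` (the two vectors lie in the ranges of `z` and `1 - z`, which are orthogonal)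
`≤ c^2 (‖z v‖^2 + ‖(1 - z) v‖^2) = c^2 ‖v‖^2`.
-/
lemma norm_add_le_of_blocks {z B₁ B₂ : H →L[ℂ] H} (hz : IsStarProjection z) (h1 : z * B₁ * z = B₁)
    (h2 : (1 - z) * B₂ * (1 - z) = B₂) {c : ℝ} (hc : 0 ≤ c) (hB₁ : ‖B₁‖ ≤ c) (hB₂ : ‖B₂‖ ≤ c) :
    ‖B₁ + B₂‖ ≤ c := by
  have hw : IsStarProjection (1 - z) := hz.one_sub
  have hzz : z * z = z := hz.isIdempotentElem.eq
  have hww : (1 - z) * (1 - z) = 1 - z := hw.isIdempotentElem.eq
  have e1 : z * B₁ = B₁ := by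
    rw [← h1, ← mul_assoc, ← mul_assoc, hzz]
  have e1' : B₁ * z = B₁ := by
    rw [← h1, mul_assoc, hzz]
  have e2 : (1 - z) * B₂ = B₂ := by
    rw [← h2, ← mul_assoc, ← mul_assoc, hww]
  have e2' : B₂ * (1 - z) = B₂ := by
    rw [← h2, mul_assoc, hww]
  have orth : ∀ a b : H, ⟪z a, (1 - z) b⟫_ℂ = 0 := by
    intro a b
    rw [inner_sa hz.isSelfAdjoint, ← mul_apply', hz.mul_one_sub_self]
    simp
  apply ContinuousLinearMap.opNorm_le_bound _ hc
  intro v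
  have ha : B₁ v = z (B₁ (z v)) := by
    calc B₁ v = (z * B₁ * z) v := by rw [h1]
      _ = z (B₁ (z v)) := rfl
  have hb : B₂ v = (1 - z) (B₂ ((1 - z) v)) := by
    calc B₂ v = ((1 - z) * B₂ * (1 - z)) v := by rw [h2]
      _ = (1 - z) (B₂ ((1 - z) v)) := rfl
  have hna : ‖B₁ v‖ ≤ c * ‖z v‖ := by
    have : B₁ v = B₁ (z v) := by
      calc B₁ v = (B₁ * z) v := by rw [e1']
        _ = B₁ (z v) := rfl
    rw [this]
    exact le_trans (B₁.le_opNorm _) (mul_le_mul_of_nonneg_right hB₁ (norm_nonneg _))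
  have hnb : ‖B₂ v‖ ≤ c * ‖(1 - z) v‖ := by
    have : B₂ v = B₂ ((1 - z) v) := by
      calc B₂ v = (B₂ * (1 - z)) v := by rw [e2']
        _ = B₂ ((1 - z) v) := rfl
    rw [this]
    exact le_trans (B₂.le_opNorm _) (mul_le_mul_of_nonneg_right hB₂ (norm_nonneg _))
  have hpy1 : ‖B₁ v + B₂ v‖ * ‖B₁ v + B₂ v‖ = ‖B₁ v‖ * ‖B₁ v‖ + ‖B₂ v‖ * ‖B₂ v‖ := by
    apply norm_add_sq_eq_norm_sq_add_norm_sq_of_inner_eq_zero (𝕜 := ℂ)
    rw [ha, hb]
    exact orth _ _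
  have hpy2 : ‖v‖ * ‖v‖ = ‖z v‖ * ‖z v‖ + ‖(1 - z) v‖ * ‖(1 - z) v‖ := by
    have hv : v = z v + (1 - z) v := by simp
    have := norm_add_sq_eq_norm_sq_add_norm_sq_of_inner_eq_zero (𝕜 := ℂ) (z v) ((1 - z) v)
      (orth v v)
    rw [← hv] at this
    exact this
  have hsq : ‖(B₁ + B₂) v‖ ^ 2 ≤ (c * ‖v‖) ^ 2 := by
    have h3 : (B₁ + B₂) v = B₁ v + B₂ v := rfl
    rw [h3]
    have h4 : ‖B₁ v‖ * ‖B₁ v‖ ≤ (c * ‖z v‖) * (c * ‖z v‖) :=
      mul_le_mul hna hna (norm_nonneg _) (by positivity)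
    have h5 : ‖B₂ v‖ * ‖B₂ v‖ ≤ (c * ‖(1 - z) v‖) * (c * ‖(1 - z) v‖) :=
      mul_le_mul hnb hnb (norm_nonneg _) (by positivity)
    calc ‖B₁ v + B₂ v‖ ^ 2 = ‖B₁ v‖ * ‖B₁ v‖ + ‖B₂ v‖ * ‖B₂ v‖ := by rw [sq, hpy1]
      _ ≤ (c * ‖z v‖) * (c * ‖z v‖) + (c * ‖(1 - z) v‖) * (c * ‖(1 - z) v‖) := add_le_add h4 h5
      _ = c ^ 2 * (‖z v‖ * ‖z v‖ + ‖(1 - z) v‖ * ‖(1 - z) v‖) := by ring
      _ = (c * ‖v‖) ^ 2 := by rw [← hpy2]; ring
  exact (pow_le_pow_iff_left₀ (norm_nonneg _) (by positivity) (by norm_num)).mp hsq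

/-
PROOF SKETCH (subtask).  Given `F, δ`, apply `h1`, `h2` with `F` and `δ / 2`: `p¹, a¹, q¹` under `z`, `p², a², q²` under `1 - z`.
`p := Fin.append p¹ p²` (or `Fin.addCases`), `a := a¹ + a²`, `q := q¹ + q²`.
* partition: pieces under `z` are orthogonal to pieces under `1 - z` (`p¹ i = z * p¹ i` because `∑ p¹ = z`), sum `= z + (1 - z) = 1` (`Fin.sum_univ_add`).
* `‖a‖ ≤ ‖x‖` by `norm_add_le_of_blocks` (`a¹ = z a¹ z` as `a¹` is self-adjoint with `z a¹ = a¹`), `‖z x z‖ ≤ ‖x‖`.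
* `q` is a projection of `M`; `(1 - q) ξ = (z - q¹) ξ + ((1 - z) - q²) ξ`.
* `pinching p x = pinching p¹ (z x z) + pinching p² ((1 - z) x (1 - z))` since `p¹ i * z = p¹ i` etc.; `q¹ * Y² = 0`, `q² * Y¹ = 0` for `Y¹ := pinching p¹ (z x z) - a¹`, `Y²` similarly, so
  `q (pinching p x - a) q = q¹ Y¹ q¹ + q² Y² q²` and `norm_add_le_of_blocks` with `c := ε ‖x‖` applies (`ε ‖z x z‖ ≤ ε ‖x‖`).
-/
theorem soPavable_of_under {z : H →L[ℂ] H} (hzp : IsStarProjection z) {x : H →L[ℂ] H} {ε : ℝ}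
    (hε : 0 ≤ ε) {r₁ r₂ : ℕ} (h1 : SoPavableUnder M A z (z * x * z) ε r₁)
    (h2 : SoPavableUnder M A (1 - z) ((1 - z) * x * (1 - z)) ε r₂) :
    SoPavable M A x ε (r₁ + r₂) := by
  intro F δ hδ
  obtain ⟨p1, a1, q1, ⟨hp1m, hp1p, hp1o, hp1s⟩, ⟨ha1m, ha1s, ha1n, ha1z⟩, ⟨hq1m, hq1p, hq1z⟩,
    hq1F, hfin1⟩ := h1 F (δ / 2) (by positivity)
  obtain ⟨p2, a2, q2, ⟨hp2m, hp2p, hp2o, hp2s⟩, ⟨ha2m, ha2s, ha2n, ha2z⟩, ⟨hq2m, hq2p, hq2z⟩,
    hq2F, hfin2⟩ := h2 F (δ / 2) (by positivity)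
  have hwp : IsStarProjection (1 - z) := hzp.one_sub
  set w : H →L[ℂ] H := 1 - z with hw
  have zw : z * w = 0 := hzp.mul_one_sub_self
  have wz : w * z = 0 := hzp.one_sub_mul_self
  have hzz : z * z = z := hzp.isIdempotentElem.eq
  have hww : w * w = w := hwp.isIdempotentElem.eq
  have P1 : IsPart A p1 z := ⟨hp1m, hp1p, hp1o, hp1s⟩
  have P2 : IsPart A p2 w := ⟨hp2m, hp2p, hp2o, hp2s⟩
  have PS := P1.sum P2 zw
  have hzw1 : z + w = 1 := by rw [hw]; abel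
  rw [hzw1] at PS
  -- adjoint versions
  have adj : ∀ {e t : H →L[ℂ] H}, IsSelfAdjoint e → IsSelfAdjoint t → e * t = t → t * e = t := by
    intro e t he ht h
    have := congrArg star h
    rwa [star_mul, he.star_eq, ht.star_eq] at this
  have ha1z' : a1 * z = a1 := adj hzp.isSelfAdjoint ha1s ha1z
  have ha2z' : a2 * w = a2 := adj hwp.isSelfAdjoint ha2s ha2z
  have hq1z' : q1 * z = q1 := adj hzp.isSelfAdjoint hq1p.isSelfAdjoint hq1z
  have hq2z' : q2 * w = q2 := adj hwp.isSelfAdjoint hq2p.isSelfAdjoint hq2z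
  have hzp1 : ∀ i, z * p1 i = p1 i := by
    classical
    intro i
    rw [← hp1s, Finset.sum_mul, Finset.sum_eq_single i]
    · exact (hp1p i).isIdempotentElem.eq
    · intro j _ hji; exact hp1o j i hji
    · intro h; exact absurd (Finset.mem_univ i) h
  have hwp2 : ∀ i, w * p2 i = p2 i := by
    classical
    intro i
    rw [← hp2s, Finset.sum_mul, Finset.sum_eq_single i]
    · exact (hp2p i).isIdempotentElem.eq
    · intro j _ hji; exact hp2o j i hji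
    · intro h; exact absurd (Finset.mem_univ i) h
  have hp1z : ∀ i, p1 i * z = p1 i := fun i =>
    adj hzp.isSelfAdjoint (hp1p i).isSelfAdjoint (hzp1 i)
  have hp2w : ∀ i, p2 i * w = p2 i := fun i =>
    adj hwp.isSelfAdjoint (hp2p i).isSelfAdjoint (hwp2 i)
  have cross : ∀ {e f s t : H →L[ℂ] H}, e * f = 0 → s * e = s → f * t = t → s * t = 0 := by
    intro e f s t hef hs ht
    rw [← hs, ← ht, mul_assoc, ← mul_assoc e, hef, zero_mul, mul_zero]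
  have hnz : ‖z‖ ≤ 1 := IsStarProjection.norm_le z hzp
  have hnw : ‖w‖ ≤ 1 := IsStarProjection.norm_le w hwp
  have hcorner : ∀ e : H →L[ℂ] H, ‖e‖ ≤ 1 → ‖e * x * e‖ ≤ ‖x‖ := by
    intro e he
    calc ‖e * x * e‖ ≤ ‖e * x‖ * ‖e‖ := norm_mul_le _ _
      _ ≤ (‖e‖ * ‖x‖) * ‖e‖ := by gcongr; exact norm_mul_le _ _
      _ ≤ (1 * ‖x‖) * 1 := by gcongr
      _ = ‖x‖ := by ring
  set Y1 : H →L[ℂ] H := pinching p1 (z * x * z) - a1 with hY1
  set Y2 : H →L[ℂ] H := pinching p2 (w * x * w) - a2 with hY2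
  have hzY1 : z * Y1 = Y1 := by
    rw [hY1, mul_sub, ha1z]
    congr 1
    unfold pinching
    rw [Finset.mul_sum]
    refine Finset.sum_congr rfl (fun i _ => ?_)
    rw [← mul_assoc, ← mul_assoc, hzp1 i]
  have hY1z : Y1 * z = Y1 := by
    rw [hY1, sub_mul, ha1z']
    congr 1
    unfold pinching
    rw [Finset.sum_mul]
    refine Finset.sum_congr rfl (fun i _ => ?_)
    rw [mul_assoc, hp1z i]
  have hwY2 : w * Y2 = Y2 := by
    rw [hY2, mul_sub, ha2z]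
    congr 1
    unfold pinching
    rw [Finset.mul_sum]
    refine Finset.sum_congr rfl (fun i _ => ?_)
    rw [← mul_assoc, ← mul_assoc, hwp2 i]
  have hY2w : Y2 * w = Y2 := by
    rw [hY2, sub_mul, ha2z']
    congr 1
    unfold pinching
    rw [Finset.sum_mul]
    refine Finset.sum_congr rfl (fun i _ => ?_)
    rw [mul_assoc, hp2w i]
  refine ⟨fun i => Sum.elim p1 p2 (finSumFinEquiv.symm i), a1 + a2, q1 + q2, ?_, ?_, ?_, ?_, ?_⟩
  · refine ⟨fun i => PS.mem _, fun i => PS.proj _, fun i j hij => PS.orth _ _ ?_, ?_⟩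
    · intro h
      exact hij (finSumFinEquiv.symm.injective h)
    · rw [← PS.sum_eq]
      exact Equiv.sum_comp finSumFinEquiv.symm (Sum.elim p1 p2)
  · refine ⟨add_mem ha1m ha2m, ha1s.add ha2s, ?_⟩
    apply norm_add_le_of_blocks hzp _ _ (norm_nonneg x)
    · exact le_trans ha1n (hcorner z hnz)
    · exact le_trans ha2n (hcorner w hnw)
    · rw [ha1z, ha1z']
    · rw [ha2z, ha2z']
  · exact ⟨add_mem hq1m hq2m, hq1p.add hq2p (cross zw hq1z' hq2z)⟩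
  · intro ξ hξ
    have e : (1 - (q1 + q2)) ξ = (z - q1) ξ + (w - q2) ξ := by
      rw [← hzw1]
      simp only [ContinuousLinearMap.sub_apply, ContinuousLinearMap.add_apply]
      abel
    rw [e]
    calc ‖(z - q1) ξ + (w - q2) ξ‖ ≤ ‖(z - q1) ξ‖ + ‖(w - q2) ξ‖ := norm_add_le _ _
      _ < δ / 2 + δ / 2 := add_lt_add (hq1F ξ hξ) (hq2F ξ hξ)
      _ = δ := by ring
  · have hpin : pinching (fun i => Sum.elim p1 p2 (finSumFinEquiv.symm i)) x
        = pinching p1 (z * x * z) + pinching p2 (w * x * w) := by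
      unfold pinching
      rw [Equiv.sum_comp finSumFinEquiv.symm
        (fun s => Sum.elim p1 p2 s * x * Sum.elim p1 p2 s), Fintype.sum_sum_type]
      simp only [Sum.elim_inl, Sum.elim_inr]
      congr 1
      · refine Finset.sum_congr rfl (fun i _ => ?_)
        calc p1 i * x * p1 i = (p1 i * z) * x * (z * p1 i) := by rw [hp1z, hzp1]
          _ = p1 i * (z * x * z) * p1 i := by simp only [mul_assoc]
      · refine Finset.sum_congr rfl (fun i _ => ?_)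
        calc p2 i * x * p2 i = (p2 i * w) * x * (w * p2 i) := by rw [hp2w, hwp2]
          _ = p2 i * (w * x * w) * p2 i := by simp only [mul_assoc]
    have hsplit : pinching (fun i => Sum.elim p1 p2 (finSumFinEquiv.symm i)) x - (a1 + a2)
        = Y1 + Y2 := by
      rw [hpin, hY1, hY2]; abel
    rw [hsplit]
    have z1 : Y1 * q2 = 0 := cross zw hY1z hq2z
    have z2 : q1 * Y2 = 0 := cross zw hq1z' hwY2
    have z3 : q2 * Y1 = 0 := cross wz hq2z' hzY1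
    have z4 : Y2 * q1 = 0 := cross wz hY2w hq1z
    have hexp : (q1 + q2) * (Y1 + Y2) * (q1 + q2) = q1 * Y1 * q1 + q2 * Y2 * q2 := by
      simp only [add_mul, mul_add, z2, z3, zero_mul, add_zero, zero_add]
      rw [mul_assoc q1 Y1 q2, z1, mul_zero, mul_assoc q2 Y2 q1, z4, mul_zero]
      abel
    rw [hexp]
    apply norm_add_le_of_blocks hzp _ _ (mul_nonneg hε (norm_nonneg x))
    · exact le_trans hfin1 (mul_le_mul_of_nonneg_left (hcorner z hnz) hε)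
    · exact le_trans hfin2 (mul_le_mul_of_nonneg_left (hcorner w hnw) hε)
    · calc z * (q1 * Y1 * q1) * z = (z * q1) * Y1 * (q1 * z) := by simp only [mul_assoc]
        _ = q1 * Y1 * q1 := by rw [hq1z, hq1z']
    · calc w * (q2 * Y2 * q2) * w = (w * q2) * Y2 * (q2 * w) := by simp only [mul_assoc]
        _ = q2 * Y2 * q2 := by rw [hq2z, hq2z']

end Vale.Agent.P078
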