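import Vale.Agent.P078.NP.ProjSup
import Vale.Agent.P078.NP.PosFun

/-!
# P078: the largest projection of `A` annihilated by all normal central positive functionals
-/

namespace Vale.Agent.P078

open scoped InnerProductSpace

variable {H : Type*} [NormedAddCommGroup H] [InnerProductSpace ℂ H] [CompleteSpace H]
variable {M A : StarSubalgebra ℂ (H →L[ℂ] H)}

/-- `e` is a projection of `A` on which every normal `A`-central positive functional vanishes. -/
def IsNullProj (M A : StarSubalgebra ℂ (H →L[ℂ] H)) (e : H →L[ℂ] H) : Prop :=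
  e ∈ A ∧ IsStarProjection e ∧ ∀ φ : (H →L[ℂ] H) →L[ℂ] ℂ, IsPosFunctional φ → IsCentralOn M A φ →
    IsNormalOn M φ → φ e = 0

lemma proj_norm_le_one {p : H →L[ℂ] H} (hp : IsStarProjection p) : ‖p‖ ≤ 1 :=
  ContinuousLinearMap.opNorm_le_bound _ zero_le_one
    (fun x => by simpa using proj_norm_apply_le hp x)

lemma proj_sub_of_le {P E : H →L[ℂ] H} (hP : IsStarProjection P) (hE : IsStarProjection E)
    (hPE : P * E = E) (hEP : E * P = E) : IsStarProjection (P - E) := by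
  refine ⟨?_, hP.isSelfAdjoint.sub hE.isSelfAdjoint⟩
  unfold IsIdempotentElem
  rw [sub_mul, mul_sub, mul_sub, hP.isIdempotentElem.eq, hPE, hEP, hE.isIdempotentElem.eq]
  abel

lemma proj_mul_of_commute {e f : H →L[ℂ] H} (he : IsStarProjection e) (hf : IsStarProjection f)
    (h : e * f = f * e) : IsStarProjection (e * f) := by
  refine ⟨?_, ?_⟩
  · unfold IsIdempotentElem
    calc e * f * (e * f) = e * (f * e) * f := by simp only [mul_assoc]
      _ = e * (e * f) * f := by rw [h]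
      _ = (e * e) * (f * f) := by simp only [mul_assoc]
      _ = e * f := by rw [he.isIdempotentElem.eq, hf.isIdempotentElem.eq]
  · unfold IsSelfAdjoint
    rw [star_mul, he.isSelfAdjoint.star_eq, hf.isSelfAdjoint.star_eq, h]

/-
PROOF SKETCH (subtask).  `exists_maximal_orthogonal (IsNullProj M A)` gives `𝓕`, `exists_sup hM 𝓕` gives `P ∈ M`.
* `P ∈ A` by `hA.maximal`: for `a ∈ A` and `ξ`, `a (P ξ) = P (a ξ)` because both are limits of `a (E ξ) = E (a ξ)`, `E = ∑ p ∈ Λ', p ∈ A` (use the approximation property for `ξ` and for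
  `a ξ` with `Λ' := Λ₁ ∪ Λ₂`; conclude by `‖a (P ξ) - P (a ξ)‖ ≤ ‖a‖ δ + δ` for all `δ`).
* `φ P = 0`: for `ε`, normality gives `F, δ`; choose `Λ'` good for all `ζ ∈ F` (finite union); `P - E ∈ M` is a projection (norm `≤ 1`), so `‖φ (P - E)‖ < ε`, and `φ E = ∑ φ p = 0`.
* largest: if `e` is null then `r := e * (1 - P)` is a projection of `A` with `r ≤ e`, so `0 ≤ (φ r).re ≤ (φ e).re = 0` (`IsPosFunctional.re_mono`; `e - r = e * P` is a projection) and `φ r = 0`: `r` is null,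
  and `r * p = 0` for `p ∈ 𝓕`.  By maximality `r = 0`, i.e. `e = e * P = P * e`.
-/
theorem exists_largest_null (hM : IsVN M) (hA : IsMASA M A) :
    ∃ w, IsNullProj M A w ∧ ∀ e, IsNullProj M A e → w * e = e := by
  classical
  obtain ⟨𝓕, h1, h2, h3⟩ := exists_maximal_orthogonal (H := H) (IsNullProj M A)
  have h𝓕A : ∀ p ∈ 𝓕, p ∈ A := fun p hp => (h1 p hp).2.2.1
  have h𝓕M : ∀ p ∈ 𝓕, p ∈ M ∧ IsStarProjection p := fun p hp =>
    ⟨hA.le (h𝓕A p hp), (h1 p hp).1⟩
  obtain ⟨P, hPM, hPp, hPmul, hkill, happ⟩ := exists_sup hM 𝓕 h𝓕M h2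
  have hmulP : ∀ p ∈ 𝓕, p * P = p := by
    intro p hp
    have := congrArg star (hPmul p hp)
    rwa [star_mul, hPp.isSelfAdjoint.star_eq, (h𝓕M p hp).2.isSelfAdjoint.star_eq] at this
  -- finite sums
  have hEA : ∀ Λ : Finset (H →L[ℂ] H), ↑Λ ⊆ 𝓕 → (∑ p ∈ Λ, p) ∈ A := fun Λ hΛ =>
    sum_mem fun p hp => h𝓕A p (hΛ hp)
  have hEp : ∀ Λ : Finset (H →L[ℂ] H), ↑Λ ⊆ 𝓕 → IsStarProjection (∑ p ∈ Λ, p) := fun Λ hΛ =>
    finset_sum_proj (fun p => p) Λ (fun p hp => (h𝓕M p (hΛ hp)).2)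
      (fun p hp q hq hne => h2 p (hΛ hp) q (hΛ hq) hne)
  have hPE : ∀ Λ : Finset (H →L[ℂ] H), ↑Λ ⊆ 𝓕 → P * (∑ p ∈ Λ, p) = ∑ p ∈ Λ, p := by
    intro Λ hΛ
    rw [Finset.mul_sum]
    exact Finset.sum_congr rfl fun p hp => hPmul p (hΛ hp)
  have hEP : ∀ Λ : Finset (H →L[ℂ] H), ↑Λ ⊆ 𝓕 → (∑ p ∈ Λ, p) * P = ∑ p ∈ Λ, p := by
    intro Λ hΛ
    rw [Finset.sum_mul]
    exact Finset.sum_congr rfl fun p hp => hmulP p (hΛ hp)
  -- `P ∈ A`
  have hPA : P ∈ A := by
    refine hA.maximal P hPM fun a ha => ?_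
    ext ξ
    simp only [mul_apply']
    have key : ∀ δ : ℝ, 0 < δ → ‖a (P ξ) - P (a ξ)‖ ≤ (‖a‖ + 1) * δ := by
      intro δ hδ
      obtain ⟨Λ₁, hΛ₁, g1⟩ := happ ξ δ hδ
      obtain ⟨Λ₂, hΛ₂, g2⟩ := happ (a ξ) δ hδ
      have hsub : (↑(Λ₁ ∪ Λ₂) : Set (H →L[ℂ] H)) ⊆ 𝓕 := by
        rw [Finset.coe_union]
        exact Set.union_subset hΛ₁ hΛ₂
      have b1 := g1 (Λ₁ ∪ Λ₂) Finset.subset_union_left hsub
      have b2 := g2 (Λ₁ ∪ Λ₂) Finset.subset_union_right hsub
      set E : H →L[ℂ] H := ∑ p ∈ Λ₁ ∪ Λ₂, p with hE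
      have hcomm : a (E ξ) = E (a ξ) := by
        have := congrArg (fun T : H →L[ℂ] H => T ξ) (hA.comm a ha E (hEA _ hsub))
        simpa only [mul_apply'] using this
      have e1 : a (P ξ) - P (a ξ) = a ((P - E) ξ) - (P - E) (a ξ) := by
        simp only [sub_apply, map_sub, hcomm]
        abel
      rw [e1]
      calc ‖a ((P - E) ξ) - (P - E) (a ξ)‖ ≤ ‖a ((P - E) ξ)‖ + ‖(P - E) (a ξ)‖ := norm_sub_le _ _
        _ ≤ ‖a‖ * ‖(P - E) ξ‖ + ‖(P - E) (a ξ)‖ := by
            gcongr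
            exact a.le_opNorm _
        _ ≤ ‖a‖ * δ + δ := by gcongr
        _ = (‖a‖ + 1) * δ := by ring
    have hz : ‖a (P ξ) - P (a ξ)‖ ≤ 0 := by
      apply le_of_forall_pos_le_add
      intro ε hε
      have hpos : 0 < ‖a‖ + 1 := by positivity
      have := key (ε / (‖a‖ + 1)) (by positivity)
      rw [mul_div_cancel₀ _ hpos.ne'] at this
      linarith
    exact sub_eq_zero.1 (norm_le_zero_iff.1 hz)
  -- `P` is null
  have hPnull : IsNullProj M A P := by
    refine ⟨hPA, hPp, fun φ hφ hc hn => ?_⟩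
    have hz : ‖φ P‖ ≤ 0 := by
      apply le_of_forall_pos_le_add
      intro ε hε
      obtain ⟨F, δ, hδ, hF⟩ := hn ε hε
      choose Λ hΛ gΛ using fun ζ : H => happ ζ δ hδ
      have hsub : (↑(F.biUnion Λ) : Set (H →L[ℂ] H)) ⊆ 𝓕 := by
        intro p hp
        rw [Finset.mem_coe, Finset.mem_biUnion] at hp
        obtain ⟨ζ, -, hp⟩ := hp
        exact hΛ ζ hp
      set E : H →L[ℂ] H := ∑ p ∈ F.biUnion Λ, p with hE
      have hφE : φ E = 0 := by
        rw [hE, map_sum]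
        exact Finset.sum_eq_zero fun p hp => (h1 p (hsub hp)).2.2.2.2 φ hφ hc hn
      have hproj : IsStarProjection (P - E) :=
        proj_sub_of_le hPp (hEp _ hsub) (hPE _ hsub) (hEP _ hsub)
      have hb := hF (P - E) (sub_mem hPM (hA.le (hEA _ hsub))) (proj_norm_le_one hproj)
        (fun ζ hζ => gΛ ζ _ (Finset.subset_biUnion_of_mem Λ hζ) hsub)
      rw [map_sub, hφE, sub_zero] at hb
      linarith
    exact norm_le_zero_iff.1 hz
  refine ⟨P, hPnull, fun e he => ?_⟩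
  obtain ⟨heA, hep, henull⟩ := he
  have hcomm : e * P = P * e := hA.comm e heA P hPA
  have h1P : IsStarProjection (1 - P) := by
    refine ⟨?_, (IsSelfAdjoint.one _).sub hPp.isSelfAdjoint⟩
    unfold IsIdempotentElem
    rw [sub_mul, mul_sub, mul_sub, hPp.isIdempotentElem.eq]
    simp
  have hcomm1 : e * (1 - P) = (1 - P) * e := by
    rw [mul_sub, sub_mul, hcomm, mul_one, one_mul]
  have hr : IsStarProjection (e * (1 - P)) := proj_mul_of_commute hep h1P hcomm1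
  have heP : IsStarProjection (e * P) := proj_mul_of_commute hep hPp hcomm
  have hrA : e * (1 - P) ∈ A := mul_mem heA (sub_mem (one_mem A) hPA)
  have hrnull : IsNullProj M A (e * (1 - P)) := by
    refine ⟨hrA, hr, fun φ hφ hc hn => ?_⟩
    have g0 := hφ _ hr.nonneg
    have hle : e * (1 - P) ≤ e := by
      rw [← sub_nonneg]
      have : e - e * (1 - P) = e * P := by rw [mul_sub, mul_one]; abel
      rw [this]
      exact heP.nonneg
    have g1 := hφ.re_mono hle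
    rw [henull φ hφ hc hn] at g1
    apply Complex.ext
    · simp only [Complex.zero_re] at g1 ⊢
      exact le_antisymm g1 g0.1
    · simpa using g0.2
  have horth : ∀ p ∈ 𝓕, e * (1 - P) * p = 0 := by
    intro p hp
    rw [mul_assoc, sub_mul, one_mul, hPmul p hp, sub_self, mul_zero]
  have hr0 : e * (1 - P) = 0 := by
    by_contra hne
    exact h3 _ hr hne hrnull horth
  rw [mul_sub, mul_one, sub_eq_zero] at hr0
  rw [← hcomm, ← hr0]

end Vale.Agent.P078
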