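import Vale.Agent.P078.Red.Corner
import Vale.Agent.P078.DefsUnder

/-!
# P078: so-paving in the corner algebra on `K` gives so-paving under the projection onto `K`
-/

namespace Vale.Agent.P078

open scoped InnerProductSpace

variable {H : Type*} [NormedAddCommGroup H] [InnerProductSpace ℂ H] [CompleteSpace H]
variable {K : Submodule ℂ H} [CompleteSpace K] {M A : StarSubalgebra ℂ (H →L[ℂ] H)}

/-
PROOF SKETCH (subtask).  Given `F ⊆ H`, `δ`: apply `h` to `F.image K.orthogonalProjectionOnto` and `δ`, get `p₀, a₀, q₀` on `K`; take `p i := inflate K (p₀ i)`, `a := inflate K a₀`,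
`q := inflate K q₀`.  `inflate` is additive, multiplicative, star-preserving, isometric, `inflate 1 = P`; `x = P x P = inflate (compress x)`, so `‖compress K x‖ = ‖x‖` and
`q * (pinching p x - a) * q = inflate (q₀ * (pinching p₀ (compress K x) - a₀) * q₀)`.  `(P - q) ξ = inflate (1 - q₀) ξ = ((1 - q₀) (proj ξ) : H)`.
-/
theorem soPavableUnder_of_corner (hKM : K.starProjection ∈ M) (hKA : K.starProjection ∈ A)
    {x : H →L[ℂ] H} (hx : K.starProjection * x * K.starProjection = x) {ε : ℝ} {r : ℕ}
    (h : SoPavable (cornerAlg M K hKM) (cornerAlg A K hKA) (compress K x) ε r) :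
    SoPavableUnder M A K.starProjection x ε r := by
  classical
  intro F δ hδ
  have hxi : inflate K (compress K x) = x := by rw [inflate_compress, hx]
  have hxn : ‖compress K x‖ = ‖x‖ := by rw [← norm_inflate (compress K x), hxi]
  obtain ⟨p₀, a₀, q₀, hp, ⟨ha1, ha2, ha3⟩, ⟨hq1, hq2⟩, hF, hn⟩ :=
    h (F.image K.orthogonalProjectionOnto) δ hδ
  refine ⟨fun i => inflate K (p₀ i), inflate K a₀, inflate K q₀, ⟨?_, ?_, ?_, ?_⟩,
    ⟨?_, ?_, ?_, ?_⟩, ⟨?_, ?_, ?_⟩, ?_, ?_⟩
  · intro i
    exact mem_cornerAlg.mp (hp.mem i)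
  · intro i
    exact inflate_isStarProjection (hp.proj i)
  · intro i j hij
    rw [← inflate_mul, hp.orth i j hij, inflate_zero]
  · rw [← inflate_sum, hp.sum_eq_one, inflate_one]
  · exact mem_cornerAlg.mp ha1
  · exact inflate_isSelfAdjoint ha2
  · rw [norm_inflate, ← hxn]
    exact ha3
  · exact proj_mul_inflate a₀
  · exact mem_cornerAlg.mp hq1
  · exact inflate_isStarProjection hq2
  · exact proj_mul_inflate q₀
  · intro ξ hξ
    rw [← inflate_one, ← inflate_sub, inflate_apply, ← Submodule.coe_norm]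
    exact hF _ (Finset.mem_image_of_mem _ hξ)
  · have e1 : pinching (fun i => inflate K (p₀ i)) x = inflate K (pinching p₀ (compress K x)) := by
      unfold pinching
      rw [inflate_sum]
      refine Finset.sum_congr rfl (fun i _ => ?_)
      rw [inflate_mul, inflate_mul, hxi]
    rw [e1, ← inflate_sub, ← inflate_mul, ← inflate_mul, norm_inflate, ← hxn]
    exact hn

end Vale.Agent.P078
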