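import Vale.Agent.P078.Red.CornerVN
import Vale.Agent.P078.Red.CornerMASA
import Vale.Agent.P078.Red.CornerNull
import Vale.Agent.P078.Red.Transport
import Vale.Agent.P078.Red.Null
import Vale.Agent.P078.Red.Glue
import Vale.Agent.P078.NP.ThinIff
import Vale.Agent.P078.VN.ThinUpper

/-!
# P078: reduction of the so-paving problem to the expected part of a MASA
-/

namespace Vale.Agent.P078

open scoped InnerProductSpace

variable {H : Type*} [NormedAddCommGroup H] [InnerProductSpace ℂ H] [CompleteSpace H]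
variable {M A : StarSubalgebra ℂ (H →L[ℂ] H)}

/-
PROOF SKETCH (subtask).  `fixedSub w = ker (w - 1)` is closed, hence complete (`IsClosed.completeSpace_coe`).  For the second lemma: `w x ∈ fixedSub w` and `x - w x` is orthogonal to
`fixedSub w` (`⟪x - w x, y⟫ = ⟪x, y⟫ - ⟪x, w y⟫ = 0` for `w y = y`), so `Submodule.eq_starProjection_of_mem_of_inner_eq_zero` (or the current name) applies.
-/
lemma completeSpace_fixedSub (w : H →L[ℂ] H) : CompleteSpace (fixedSub w) := by
  have hcl : IsClosed ((fixedSub w : Submodule ℂ H) : Set H) := by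
    have : ((fixedSub w : Submodule ℂ H) : Set H) = {x | w x = x} := rfl
    rw [this]
    exact isClosed_eq w.continuous continuous_id
  exact hcl.completeSpace_coe

lemma starProjection_fixedSub {w : H →L[ℂ] H} (hw : IsStarProjection w)
    [CompleteSpace (fixedSub w)] : (fixedSub w).starProjection = w := by
  ext x
  apply Submodule.eq_starProjection_of_mem_of_inner_eq_zero
  · exact proj_apply_apply hw x
  · intro y hy
    have hy' : w y = y := hy
    rw [inner_sub_left, inner_sa hw.isSelfAdjoint, hy', sub_self]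

/-- Under a null projection `w` the corner is thin, so everything is `(ε, r)` so-pavable for `r ε > 1`. -/
theorem allPavableUnder_of_null (hM : IsVN M) (hA : IsMASA M A) {w : H →L[ℂ] H}
    (hw : IsNullProj M A w) {ε : ℝ} {r : ℕ} (hε : 1 < r * ε) : AllPavableUnder M A w ε r := by
  haveI := completeSpace_fixedSub w
  have hP : (fixedSub w).starProjection = w := starProjection_fixedSub hw.2.1
  have hKA : (fixedSub w).starProjection ∈ A := by rw [hP]; exact hw.1
  have hVN := isVN_cornerAlg hM (hA.le hKA)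
  have hMASA := isMASA_cornerAlg hA hKA
  have hnc := noCentralNormal_cornerAlg hA hKA (by rw [hP]; exact hw.2.2)
  have hthin := thin_of_noCentralNormal hVN hMASA hnc
  intro x hxM hx hwx
  have h1 := hMASA.soPavable_of_thin hVN hthin (compress_mem_cornerAlg (hA.le hKA) hxM)
    (compress_isSelfAdjoint hx) hε
  have h2 := soPavableUnder_of_corner (hA.le hKA) hKA (by rw [hP]; exact hwx) h1
  rwa [hP] at h2

/-- **Reduction theorem.** -/
theorem reduction (hM : IsVN M) (hA : IsMASA M A) :
    ∃ z, z ∈ A ∧ IsStarProjection z ∧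
      (∀ e ∈ A, IsStarProjection e → e ≠ 0 → z * e = e →
        ∃ φ : (H →L[ℂ] H) →L[ℂ] ℂ, IsPosFunctional φ ∧ IsCentralOn M A φ ∧ IsNormalOn M φ ∧
          φ e ≠ 0) ∧
      (∀ φ : (H →L[ℂ] H) →L[ℂ] ℂ, IsPosFunctional φ → IsCentralOn M A φ → IsNormalOn M φ →
        φ (1 - z) = 0) ∧
      (∀ (ε : ℝ) (r : ℕ), 1 < r * ε → AllPavableUnder M A (1 - z) ε r) ∧
      (∀ (ε : ℝ) (r₁ r₂ : ℕ), 1 < r₂ * ε → AllPavableUnder M A z ε r₁ →
        AllPavable M A ε (r₁ + r₂)) := by
  obtain ⟨w, hw, hmax⟩ := exists_largest_null hM hA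
  have hzp : IsStarProjection (1 - w) := hw.2.1.one_sub
  have h1w : 1 - (1 - w) = w := by abel
  refine ⟨1 - w, sub_mem (one_mem A) hw.1, hzp, ?_, ?_, ?_, ?_⟩
  · intro e heA hep he0 hze
    by_contra hcon
    push Not at hcon
    have hnull : IsNullProj M A e := ⟨heA, hep, hcon⟩
    have h1 := hmax e hnull
    apply he0
    rw [sub_mul, one_mul, h1, sub_self] at hze
    exact hze.symm
  · intro φ h1 h2 h3
    rw [h1w]
    exact hw.2.2 φ h1 h2 h3
  · intro ε r hε
    rw [h1w]
    exact allPavableUnder_of_null hM hA hw hε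
  · intro ε r₁ r₂ hε h x hxM hx
    have hε0 : 0 ≤ ε := by
      by_contra hneg
      push Not at hneg
      have : (r₂ : ℝ) * ε ≤ 0 := mul_nonpos_of_nonneg_of_nonpos (Nat.cast_nonneg _) hneg.le
      linarith
    have hzM : (1 - w) ∈ M := hA.le (sub_mem (one_mem A) hw.1)
    have hwM : w ∈ M := hA.le hw.1
    have hsa : ∀ {e : H →L[ℂ] H}, IsStarProjection e → IsSelfAdjoint (e * x * e) := by
      intro e he
      unfold IsSelfAdjoint
      rw [star_mul, star_mul, he.isSelfAdjoint.star_eq, hx.star_eq, mul_assoc]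
    have hcut : ∀ {e : H →L[ℂ] H}, IsStarProjection e → e * (e * x * e) * e = e * x * e := by
      intro e he
      have hee : e * e = e := he.isIdempotentElem.eq
      calc e * (e * x * e) * e = (e * e) * x * (e * e) := by simp only [mul_assoc]
        _ = e * x * e := by rw [hee]
    apply soPavable_of_under hzp hε0
    · exact h _ (mul_mem (mul_mem hzM hxM) hzM) (hsa hzp) (hcut hzp)
    · rw [h1w]
      exact allPavableUnder_of_null hM hA hw hε _ (mul_mem (mul_mem hwM hxM) hwM) (hsa hw.2.1)
        (hcut hw.2.1)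

end Vale.Agent.P078
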